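import Vale.Agent.P122A.Fin5

open MeasureTheory

namespace Vale.Agent.Results.P122.Both

open Vale.Agent.P122A

theorem result (p c : ℝ) (hp : 3 < p) (hc : 0 < c) (φ ψ : ℝ → ℝ) (hφ : Cu c φ) :
    (Cu c ψ → ∃ C : ENNReal, C ≠ ⊤ ∧
      ∀ (ν : Measure ℝ) (f g : ℝ → ℝ → ℂ) (F₀ : ℝ × ℝ → ℂ), IsFiniteMeasure ν →
        Measurable (Function.uncurry f) → Measurable (Function.uncurry g) → IntegrableOn F₀ sq1 →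
        (∀ s, ∀ q ∈ sq1, ‖f s q.1 * g s q.2‖ ≤ ‖F₀ q‖) →
        ∫⁻ z, ‖ext φ ψ (fun q => (∫ s, f s q.1 * g s q.2 ∂ν) * jac φ ψ q) z‖ₑ ^ p ≤
          C * ν Set.univ ^ p * ∫⁻ q in sq1, ‖F₀ q‖ₑ ^ p * ENNReal.ofReal (jac φ ψ q)) ∧
    (C2 c ψ → ∀ s : ℝ, 1 / 2 - 1 / p < s → ∃ C : ENNReal, C ≠ ⊤ ∧ ∀ g : ℝ → ℝ → ℂ,
      Measurable (Function.uncurry g) →
      IntegrableOn (Function.uncurry g) (Set.Icc (0 : ℝ) 1 ×ˢ (Set.univ : Set ℝ)) →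
      ∫⁻ z, ‖ext φ ψ (fun q => ∫ y, g q.1 y * ee (y * q.2)) z‖ₑ ^ p ≤
        C * ∫⁻ ξ in Set.Icc (0 : ℝ) 1,
          (∫⁻ y, ENNReal.ofReal (1 + |y|) ^ (2 * s) * ‖g ξ y‖ₑ ^ 2) ^ (p / 2)) :=
  ⟨fun hψ => y_surf p c hp hc φ ψ hφ hψ, fun hψ s hs => sob3 z_mix p c s hp hc hs φ ψ hφ hψ⟩

end Vale.Agent.Results.P122.Both
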