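import Vale.Agent.P122A.Fin4

open MeasureTheory

namespace Vale.Agent.Results.P122.HalfSmooth

open Vale.Agent.P122A

theorem result (p c : ℝ) (hp : 3 < p) (hc : 0 < c) (φ ψ : ℝ → ℝ) (hφ : Cu c φ) (hψ : C2 c ψ) :
    (∃ C : ENNReal, C ≠ ⊤ ∧ ∀ (g : ℝ → ℝ → ℂ) (Y : Set ℝ),
      Measurable (Function.uncurry g) → MeasurableSet Y → (∀ ξ y, y ∉ Y → g ξ y = 0) →
      IntegrableOn (Function.uncurry g) (Set.Icc (0 : ℝ) 1 ×ˢ (Set.univ : Set ℝ)) →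
      ∫⁻ z, ‖ext φ ψ (fun q => ∫ y, g q.1 y * ee (y * q.2)) z‖ₑ ^ p ≤
        C * volume Y ^ (p / 2 - 1) *
          (∫⁻ y, (∫⁻ ξ in Set.Icc (0 : ℝ) 1, ‖g ξ y‖ₑ ^ p) ^ (2 / p)) ^ (p / 2)) ∧
    ∀ s : ℝ, 1 / 2 - 1 / p < s → ∃ C : ENNReal, C ≠ ⊤ ∧ ∀ g : ℝ → ℝ → ℂ,
      Measurable (Function.uncurry g) →
      IntegrableOn (Function.uncurry g) (Set.Icc (0 : ℝ) 1 ×ˢ (Set.univ : Set ℝ)) →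
      ∫⁻ z, ‖ext φ ψ (fun q => ∫ y, g q.1 y * ee (y * q.2)) z‖ₑ ^ p ≤
        C * (∫⁻ y, ENNReal.ofReal (1 + |y|) ^ (2 * s) *
          (∫⁻ ξ in Set.Icc (0 : ℝ) 1, ‖g ξ y‖ₑ ^ p) ^ (2 / p)) ^ (p / 2) :=
  ⟨non z_vdc d_l2 d_lp z_abs d_rep d_wt d_fub.1 d_fub.2 p c hp hc φ ψ hφ hψ, fun s hs =>
    sob z_vdc d_l2 d_lp z_abs d_rep d_wt d_fub.1 d_fub.2 p c s hp hc hs φ ψ hφ hψ⟩

end Vale.Agent.Results.P122.HalfSmooth
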