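import Vale.Agent.P122A.Fin5

open MeasureTheory

namespace Vale.Agent.Results.P122.MixedSobolev

open Vale.Agent.P122A

theorem result (p c : ℝ) (hp : 3 < p) (hc : 0 < c) (φ ψ : ℝ → ℝ) (hφ : Cu c φ) (hψ : C2 c ψ) :
    (∃ C : ENNReal, C ≠ ⊤ ∧ ∀ (g : ℝ → ℝ → ℂ) (Y : Set ℝ),
      Measurable (Function.uncurry g) → MeasurableSet Y → (∀ ξ y, y ∉ Y → g ξ y = 0) →
      IntegrableOn (Function.uncurry g) (Set.Icc (0 : ℝ) 1 ×ˢ (Set.univ : Set ℝ)) →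
      ∫⁻ z, ‖ext φ ψ (fun q => ∫ y, g q.1 y * ee (y * q.2)) z‖ₑ ^ p ≤
        C * volume Y ^ (p / 2 - 1) *
          ∫⁻ ξ in Set.Icc (0 : ℝ) 1, (∫⁻ y, ‖g ξ y‖ₑ ^ 2) ^ (p / 2)) ∧
    ∀ s : ℝ, 1 / 2 - 1 / p < s → ∃ C : ENNReal, C ≠ ⊤ ∧ ∀ g : ℝ → ℝ → ℂ,
      Measurable (Function.uncurry g) →
      IntegrableOn (Function.uncurry g) (Set.Icc (0 : ℝ) 1 ×ˢ (Set.univ : Set ℝ)) →
      ∫⁻ z, ‖ext φ ψ (fun q => ∫ y, g q.1 y * ee (y * q.2)) z‖ₑ ^ p ≤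
        C * ∫⁻ ξ in Set.Icc (0 : ℝ) 1,
          (∫⁻ y, ENNReal.ofReal (1 + |y|) ^ (2 * s) * ‖g ξ y‖ₑ ^ 2) ^ (p / 2) :=
  ⟨non3 z_mix p c hp hc φ ψ hφ hψ, fun s hs => sob3 z_mix p c s hp hc hs φ ψ hφ hψ⟩

end Vale.Agent.Results.P122.MixedSobolev
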