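import Vale.Agent.P122A.Fin3

open MeasureTheory

namespace Vale.Agent.Results.P122.Tensor

open Vale.Agent.P122A

theorem result (p c : ℝ) (hp : 3 < p) (hc : 0 < c) (φ ψ : ℝ → ℝ) (hφ : Cu c φ) (hψ : Cu c ψ) :
    ∃ C : ENNReal, C ≠ ⊤ ∧
      (∀ f g : ℝ → ℂ, Measurable f → Measurable g →
        IntegrableOn (fun q : ℝ × ℝ => f q.1 * g q.2) sq1 →
        ∫⁻ z, ‖ext φ ψ (fun q => f q.1 * g q.2 * jac φ ψ q) z‖ₑ ^ p ≤
          C * ∫⁻ q in sq1, ‖f q.1 * g q.2‖ₑ ^ p * ENNReal.ofReal (jac φ ψ q)) ∧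
      ∀ (ν : Measure ℝ) (f g : ℝ → ℝ → ℂ) (F₀ : ℝ × ℝ → ℂ), IsFiniteMeasure ν →
        Measurable (Function.uncurry f) → Measurable (Function.uncurry g) → IntegrableOn F₀ sq1 →
        (∀ s, ∀ q ∈ sq1, ‖f s q.1 * g s q.2‖ ≤ ‖F₀ q‖) →
        ∫⁻ z, ‖ext φ ψ (fun q => (∫ s, f s q.1 * g s q.2 ∂ν) * jac φ ψ q) z‖ₑ ^ p ≤
          C * ν Set.univ ^ p * ∫⁻ q in sq1, ‖F₀ q‖ₑ ^ p * ENNReal.ofReal (jac φ ψ q) := by
  obtain ⟨C, hC, h⟩ := y_surf p c hp hc φ ψ hφ hψ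
  refine ⟨C, hC, fun f g hf hg h0 => ?_, h⟩
  have h1 := h (Measure.dirac 0) (fun _ => f) (fun _ => g) _ inferInstance
    (hf.comp measurable_snd) (hg.comp measurable_snd) h0 fun _ _ _ => le_rfl
  simpa only [integral_dirac, measure_univ, ENNReal.one_rpow, mul_one] using h1

end Vale.Agent.Results.P122.Tensor
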